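import Vale.Agent.P333.Poly2

namespace Vale.Agent.Results.P333.TwoApprox

/-- A deterministic polynomial-time 2-approximation for the shortest common superstring. -/
theorem result : ∃ f : List (List ℕ) → List ℕ, Vale.Agent.PT.PolyTimeTM f ∧
    ∀ S : List (List ℕ), (∀ s ∈ S, s <:+: f S) ∧
      ∀ T : List ℕ, (∀ s ∈ S, s <:+: T) → (f S).length ≤ 2 * T.length :=
  ⟨Vale.Agent.P333.scs, Vale.Agent.P333.pt_scs.toTM, fun _ =>
    ⟨Vale.Agent.P333.scs_super, fun _ hT => Vale.Agent.P333.scs_length hT⟩⟩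

end Vale.Agent.Results.P333.TwoApprox
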